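import Vale.Agent.P133.R2.H695.Defs
import Vale.Agent.P133.H832.BuiltI

/-!
P133 (helper695): a class of C*-algebras closed under many constructions.
-/

namespace Vale.Agent.P133.H695

open Vale.Agent.P133.H832

universe u

/-- The smallest class of C*-algebras that contains the class `BuiltI` (so all C*-algebras of
finite nuclear dimension or of finite inductive dimension) and is closed under extensions, dense
unions of closed two-sided ideals, bounded products, `A ↦ C₀(X, A)`, algebras of sections of upper
semicontinuous fields over finitely separated spaces, and, new, under separation (`A` is in the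
class if any two open subsets of its primitive ideal space can be separated along closed subsets
whose algebras are in the class) and under algebras of sections of upper semicontinuous fields
over locally compact Hausdorff spaces all of whose compact subsets have transfinite inductive
dimension. -/
inductive BuiltT : (A : Type u) → [NonUnitalCStarAlgebra A] → [PartialOrder A] →
    [StarOrderedRing A] → Prop
  /-- the class `BuiltI` -/
  | old (A : Type u) [NonUnitalCStarAlgebra A] [PartialOrder A] [StarOrderedRing A]
      (hA : BuiltI A) : BuiltT A
  /-- separation -/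
  | sep (K : Type u) (C : K → Type u) [∀ k, NonUnitalCStarAlgebra (C k)]
      [∀ k, PartialOrder (C k)] [∀ k, StarOrderedRing (C k)]
      (A : Type u) [NonUnitalCStarAlgebra A] [PartialOrder A] [StarOrderedRing A]
      (h : IsSepAlong C A) (hC : ∀ k, BuiltT (C k)) : BuiltT A
  /-- extensions: `0 → J → A → B → 0` exact -/
  | ext (J A B : Type u) [NonUnitalCStarAlgebra J] [PartialOrder J] [StarOrderedRing J]
      [NonUnitalCStarAlgebra A] [PartialOrder A] [StarOrderedRing A]
      [NonUnitalCStarAlgebra B] [PartialOrder B] [StarOrderedRing B]
      (h : IsExtension J A B) (hJ : BuiltT J) (hB : BuiltT B) : BuiltT A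
  /-- dense unions of closed two-sided ideals -/
  | union (I : Type u) (J : I → Type u) (A : Type u) [∀ i, NonUnitalCStarAlgebra (J i)]
      [∀ i, PartialOrder (J i)] [∀ i, StarOrderedRing (J i)]
      [NonUnitalCStarAlgebra A] [PartialOrder A] [StarOrderedRing A]
      (h : IsDenseUnion J A) (hJ : ∀ i, BuiltT (J i)) : BuiltT A
  /-- bounded products -/
  | prod (I : Type u) (B : I → Type u) [∀ i, NonUnitalCStarAlgebra (B i)]
      [∀ i, PartialOrder (B i)] [∀ i, StarOrderedRing (B i)]
      [PartialOrder (BddProd B)] [StarOrderedRing (BddProd B)] (hB : ∀ i, BuiltT (B i)) :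
      BuiltT (BddProd B)
  /-- continuous functions vanishing at infinity -/
  | func (A : Type u) [NonUnitalCStarAlgebra A] [PartialOrder A] [StarOrderedRing A]
      (X : Type u) [TopologicalSpace X] [LocallyCompactSpace X] [T2Space X] [Nonempty X]
      [PartialOrder (FunAlg X A)] [StarOrderedRing (FunAlg X A)] (hA : BuiltT A) :
      BuiltT (FunAlg X A)
  /-- sections of an upper semicontinuous field over a finitely separated space -/
  | field (X : Type u) [TopologicalSpace X] (hX : FinitelySeparated X) (B : X → Type u)
      [∀ t, NonUnitalCStarAlgebra (B t)] [∀ t, PartialOrder (B t)] [∀ t, StarOrderedRing (B t)]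
      (A : Type u) [NonUnitalCStarAlgebra A] [PartialOrder A] [StarOrderedRing A]
      (h : IsSectionAlgebra B A) (hB : ∀ t, BuiltT (B t)) : BuiltT A
  /-- sections of an upper semicontinuous field over a locally compact Hausdorff space all of
  whose compact subsets have transfinite inductive dimension -/
  | tfield (X : Type u) [TopologicalSpace X] [LocallyCompactSpace X] [T2Space X]
      (hX : ∀ K : Set X, IsCompact K → TrInd K) (B : X → Type u)
      [∀ t, NonUnitalCStarAlgebra (B t)] [∀ t, PartialOrder (B t)] [∀ t, StarOrderedRing (B t)]
      (A : Type u) [NonUnitalCStarAlgebra A] [PartialOrder A] [StarOrderedRing A]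
      (h : IsSectionAlgebra B A) (hB : ∀ t, BuiltT (B t)) : BuiltT A

end Vale.Agent.P133.H695
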