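import Vale.Agent.P133.R2.H695.Field
import Vale.Agent.P133.R2.H810.Main

/-!
P133 (helper695): clauses of the hand-in TransfiniteDimension.
-/

namespace Vale.Agent.P133.H695

open Vale.Agent.P133 Vale.Agent.P133.Statement Vale.Agent.P133.H832 Vale.Agent.P133F
  Vale.Agent.P133.H681

universe u

theorem tfield_clause {X : Type u} [TopologicalSpace X] [LocallyCompactSpace X] [T2Space X]
    (hX : ∀ K : Set X, IsCompact K → TrInd K) {B : X → Type u}
    [∀ t, NonUnitalCStarAlgebra (B t)] [∀ t, PartialOrder (B t)] [∀ t, StarOrderedRing (B t)]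
    {A : Type u} [NonUnitalCStarAlgebra A] [PartialOrder A] [StarOrderedRing A]
    (h : IsSectionAlgebra B A) :
    (PurelyInfinite A ↔ WeaklyPurelyInfinite A ∧ ∀ t, PurelyInfinite (B t)) ∧
      ((∀ t, Coincide (B t)) → Coincide A) := by
  refine ⟨⟨fun hA => ⟨wpi_of_pi hA, fun t => ?_⟩, fun hA => wpi_tfield hX h hA.1 hA.2⟩,
    fun hB => coincide_of fun hA => wpi_tfield hX h hA fun t => (hB t).1.1 ?_⟩
  · obtain ⟨π, hπ, -⟩ := h
    exact pi_of_eltPI (eltPI_of_surj (π t) (hπ t) (eltPI_of A hA))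
  · obtain ⟨π, hπ, -⟩ := h
    exact wpi_of_surj (π t) (hπ t) hA

theorem sep_clause {K : Type u} {C : K → Type u} [∀ k, NonUnitalCStarAlgebra (C k)]
    [∀ k, PartialOrder (C k)] [∀ k, StarOrderedRing (C k)]
    {A : Type u} [NonUnitalCStarAlgebra A] [PartialOrder A] [StarOrderedRing A]
    (h : IsSepAlong C A) (hC : ∀ k, Coincide (C k)) : Coincide A :=
  coincide_of (R2.H810.wpi_sep h fun k => (hC k).1.1)

theorem trDim_clause {A : Type u} [NonUnitalCStarAlgebra A] [PartialOrder A] [StarOrderedRing A]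
    (hA : TrDim A) : Coincide A := by
  induction hA with
  | tame A hA => exact coincide_of fun hW => pi_of_eltPI (eltPI_tame hA hW)
  | sep K C A h _ hC => exact sep_clause h hC

theorem trDim_of_dim (n : ℕ) : ∀ (A : Type u) [NonUnitalCStarAlgebra A] [PartialOrder A]
    [StarOrderedRing A], TameDimLE n A → TrDim A := by
  induction n with
  | zero => intro A _ _ _ hA; exact .tame A hA
  | succ n ih =>
    intro A _ _ _ hA
    have hA' : TameDimLE n A ∨ IsSep (TameDimLE n) A := hA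
    rcases hA' with hA | h
    · exact ih A hA
    let K : Type u := {q : Submodule ℂ A × Submodule ℂ A × A × ℝ //
      IsClosedIdeal q.1 ∧ IsClosedIdeal q.2.1 ∧ InSum q.1 q.2.1 q.2.2.1 ∧ 0 < q.2.2.2}
    have h' : ∀ k : K, _ := fun k => h k.1.1 k.1.2.1 k.2.1 k.2.2.1 _ k.2.2.2.1 _ k.2.2.2.2
    choose I₁ I₂ hI₁ hI₂ h12 hw B i1 i2 i3 φ hφ hk hB using h'
    refine TrDim.sep K B A ?_ fun k => ih (B k) (hB k)
    intro J₁ J₂ h1 h2 w hw' ε hε
    let k : K := ⟨(J₁, J₂, w, ε), h1, h2, hw', hε⟩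
    exact ⟨I₁ k, I₂ k, hI₁ k, hI₂ k, h12 k, hw k, k, φ k, hφ k, hk k⟩

end Vale.Agent.P133.H695
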