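import Vale.Agent.P133.H832.FieldDefs
import Vale.Agent.P133.H832.SepDef

/-!
P133 (helper695): C*-algebras of transfinite inductive dimension.
-/

namespace Vale.Agent.P133.H695

open Vale.Agent.P133.H832

universe u

/-- Spaces of transfinite inductive dimension: the smallest class of topological spaces that
contains every space with a continuous injective map to some `ℝ^N` and every space `X` with the
property that any two disjoint closed subsets `F`, `G` of `X` can be separated by one of the sets
`L k` (the complement of `L k` is the union of disjoint open sets containing `F` and `G`), where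
every `L k` is in the class. A compact metrizable space is in the class if and only if its
transfinite large inductive dimension is defined, that is, if and only if it is a countable union
of zero-dimensional subsets. -/
inductive TrInd : (X : Type u) → [TopologicalSpace X] → Prop
  /-- spaces that inject continuously in some `ℝ^N`, for example the empty space -/
  | fin (X : Type u) [TopologicalSpace X] (h : FinitelySeparated X) : TrInd X
  /-- separation of disjoint closed subsets -/
  | part (X : Type u) [TopologicalSpace X] (K : Type u) (L : K → Set X)
      (h : ∀ F G : Set X, IsClosed F → IsClosed G → Disjoint F G → ∃ k, ∃ U V : Set X,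
        IsOpen U ∧ IsOpen V ∧ Disjoint U V ∧ F ⊆ U ∧ G ⊆ V ∧ (L k)ᶜ = U ∪ V)
      (hL : ∀ k, TrInd (L k)) : TrInd X

/-- Any two open subsets of the primitive ideal space of `A` (closed ideals `J₁`, `J₂`) can be
separated along a closed subset: there are closed ideals `I₁`, `I₂` with `I₁ ∩ I₂ = 0` such that a
given element of `J₁ + J₂` is approximated by elements of `J₁ + I₂` that are also in `J₂ + I₁`,
and the quotient of `A` by the closure of `I₁ + I₂` is one of the algebras `C k`. -/
def IsSepAlong {K : Type u} (C : K → Type u) [∀ k, NonUnitalCStarAlgebra (C k)] (A : Type u)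
    [NonUnitalCStarAlgebra A] : Prop :=
  ∀ J₁ J₂ : Submodule ℂ A, IsClosedIdeal J₁ → IsClosedIdeal J₂ → ∀ w, InSum J₁ J₂ w →
    ∀ ε : ℝ, 0 < ε → ∃ I₁ I₂ : Submodule ℂ A, IsClosedIdeal I₁ ∧ IsClosedIdeal I₂ ∧
      (∀ z ∈ I₁, z ∈ I₂ → z = 0) ∧ (∃ w', ‖w' - w‖ < ε ∧ InSum J₁ I₂ w' ∧ InSum J₂ I₁ w') ∧
      ∃ (k : K) (φ : A →⋆ₙₐ[ℂ] C k), Function.Surjective φ ∧
        ∀ z, φ z = 0 ↔ ∀ δ : ℝ, 0 < δ → ∃ y, InSum I₁ I₂ y ∧ ‖y - z‖ < δ

/-- C*-algebras of transfinite inductive dimension: the smallest class of C*-algebras that
contains all those with a tame lattice of closed ideals (`IsTameC`; for example totally ordered, or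
topological dimension zero) and every `A` with the property that any two open subsets of its
primitive ideal space can be separated along closed subsets whose algebras are in the class. -/
inductive TrDim : (A : Type u) → [NonUnitalCStarAlgebra A] → [PartialOrder A] →
    [StarOrderedRing A] → Prop
  /-- the tame case -/
  | tame (A : Type u) [NonUnitalCStarAlgebra A] [PartialOrder A] [StarOrderedRing A]
      (hA : IsTameC A) : TrDim A
  /-- separation -/
  | sep (K : Type u) (C : K → Type u) [∀ k, NonUnitalCStarAlgebra (C k)]
      [∀ k, PartialOrder (C k)] [∀ k, StarOrderedRing (C k)]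
      (A : Type u) [NonUnitalCStarAlgebra A] [PartialOrder A] [StarOrderedRing A]
      (h : IsSepAlong C A) (hC : ∀ k, TrDim (C k)) : TrDim A

end Vale.Agent.P133.H695
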