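import Vale.Agent.P133.R2.H695.Good
import Vale.Agent.P133.R2.H486.Restrict

/-!
P133 (helper695): sections of upper semicontinuous fields of purely infinite C*-algebras over
spaces of transfinite inductive dimension.
-/

open scoped ComplexOrder

namespace Vale.Agent.P133.H695

open Vale.Agent.P133 Vale.Agent.P133.Statement Vale.Agent.P133.H832 Vale.Agent.P133F
  Vale.Agent.P133.H681 Vale.Agent.P133.H486

universe u

theorem eltPI_trInd {X : Type u} [TopologicalSpace X] (hX : TrInd X) :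
    ∀ (_ : CompactSpace X) (_ : T2Space X) (B : X → Type u) (_ : ∀ t, NonUnitalCStarAlgebra (B t))
      (_ : ∀ t, PartialOrder (B t)) (_ : ∀ t, StarOrderedRing (B t))
      (A : Type u) (_ : NonUnitalCStarAlgebra A) (_ : PartialOrder A) (_ : StarOrderedRing A)
      (π : ∀ t, A →⋆ₙₐ[ℂ] B t), FieldData π → ∀ n, WPI A n → (∀ t, EltPI (B t)) → EltPI A := by
  induction hX with
  | fin X h =>
    intro _ _ B _ _ _ A _ _ _ π hπ n hn hB
    obtain ⟨N, p, hp, hinj⟩ := h
    exact eltPI_field hπ (fun i => ⟨fun x => p x i, (continuous_apply i).comp hp⟩)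
      (fun s t hst => hinj (funext hst)) hB
  | part X K L h hL ih =>
    intro _ _ B _ _ _ A _ _ _ π hπ n hn hB
    refine eltPI_of_good hπ (fun a ha κ hκ t => good_local hπ hn ha hκ t (diag_of_eltPI _ (hB t))) ?_
    intro a ha κ hκ U V hU hV gU gV
    refine good_union hπ hn ha hκ hU hV gU gV ?_
    intro F G hF hG hFG
    obtain ⟨k, O₁, O₂, h1, h2, h3, h4, h5, h6⟩ := h F G hF hG hFG
    obtain ⟨I₁, I₂, hI₁, hI₂, hm₁, hm₂, h12, hcl⟩ := ker_part hπ h1 h2 h3
    have hLc : IsClosed (L k) := by rw [← isOpen_compl_iff, h6]; exact h1.union h2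
    obtain ⟨C, j1, j2, j3, φ, ρ, hφ, hker, hρ, hρf⟩ := exists_restrict_lc hπ hLc.isCompact
    refine ⟨O₁, O₂, h4, h5, I₁, I₂, hI₁, hI₂, hm₁, hm₂, h12, h1, h2, C, j1, φ, hφ, ?_, ?_⟩
    · intro z
      rw [hker, hcl]
      have hmem : ∀ t, t ∈ L k ↔ (t ∉ O₁ ∧ t ∉ O₂) := by
        intro t
        rw [← not_or, ← Set.mem_union, ← h6, Set.mem_compl_iff, not_not]
      exact ⟨fun hz t ht1 ht2 => hz t ((hmem t).2 ⟨ht1, ht2⟩),
        fun hz t ht => hz t ((hmem t).1 ht).1 ((hmem t).1 ht).2⟩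
    · have hcs : CompactSpace (L k) := isCompact_iff_compactSpace.1 hLc.isCompact
      exact diag_of_eltPI C (ih k hcs inferInstance (fun t => B t) _ (fun t => inferInstance)
        (fun t => inferInstance) C j1 j2 j3 ρ hρf n (wpiE_of_surj hn φ hφ) (fun t => hB t))

/-- the locally compact case -/
theorem eltPI_trInd_lc {X : Type u} [TopologicalSpace X] [LocallyCompactSpace X] [T2Space X]
    (hX : ∀ K : Set X, IsCompact K → TrInd K) {B : X → Type u}
    [∀ t, NonUnitalCStarAlgebra (B t)] [∀ t, PartialOrder (B t)] [∀ t, StarOrderedRing (B t)]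
    {A : Type u} [NonUnitalCStarAlgebra A] [PartialOrder A] [StarOrderedRing A]
    {π : ∀ t, A →⋆ₙₐ[ℂ] B t} (hπ : FieldData π) {n : ℕ} (hn : WPI A n)
    (hB : ∀ t, EltPI (B t)) : EltPI A := by
  intro a a0 ε hε
  have hε4 : 0 < ε / 4 := by positivity
  have hK0 : IsCompact {t | ε / 4 ≤ ‖π t a‖} := hπ.cpt a _ hε4
  obtain ⟨K, hK, hKK⟩ := exists_compact_superset hK0
  obtain ⟨C, j1, j2, j3, φ, ρ, hφ, hker, hρ, hρf⟩ := exists_restrict_lc hπ hK
  have hcs : CompactSpace K := isCompact_iff_compactSpace.1 hK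
  have hC : EltPI C := eltPI_trInd (hX K hK) hcs inferInstance (fun t => B t) _
    (fun t => inferInstance) (fun t => inferInstance) C j1 j2 j3 ρ hρf n (wpiE_of_surj hn φ hφ)
    (fun t => hB t)
  obtain ⟨g, hg0, hg1, hg01⟩ := exists_continuous_zero_one_of_isCompact' hK0
    (isOpen_interior (s := K)).isClosed_compl
    (Set.disjoint_left.2 fun t h1 h2 => h2 (hKK h1))
  have key : ∀ r : Fin 2 → A,
      (∀ i j, ‖φ (star (r i) * a * r j - (if i = j then a else 0))‖ < ε / 4) →
      ∃ R : Fin 2 → A, ∀ i j, ‖star (R i) * a * R j - (if i = j then a else 0)‖ < ε := by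
    intro r hr
    choose R hR using fun i => hπ.mul g hg01 (r i)
    refine ⟨R, fun i j => lt_of_le_of_lt (hπ.norm _ (3 * (ε / 4)) (by positivity) fun t => ?_)
      (by linarith)⟩
    set E : A := star (r i) * a * r j - (if i = j then a else 0) with hE
    have h1 : π t (star (R i) * a * R j - (if i = j then a else 0)) =
        ((g t * g t : ℝ) : ℂ) • π t E -
          (((1 - g t * g t : ℝ)) : ℂ) • π t (if i = j then a else 0) := by
      rw [hE, map_sub, map_sub, map_mul, map_mul, map_star, hR, hR, star_smul, RCLike.star_def,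
        Complex.conj_ofReal, smul_mul_assoc, smul_mul_smul_comm, ← Complex.ofReal_mul,
        map_mul, map_mul, map_star, smul_sub, Complex.ofReal_sub, sub_smul, Complex.ofReal_one,
        one_smul]
      abel
    have hg2 : 0 ≤ g t * g t ∧ g t * g t ≤ 1 :=
      ⟨mul_nonneg (hg01 t).1 (hg01 t).1, mul_le_one₀ (hg01 t).2 (hg01 t).1 (hg01 t).2⟩
    have h2 : ‖((g t * g t : ℝ) : ℂ) • π t E‖ ≤ ε / 4 := by
      rw [norm_smul, Complex.norm_real, Real.norm_of_nonneg hg2.1]
      by_cases ht : t ∈ K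
      · have h3 : ‖π t E‖ ≤ ε / 4 := by
          rw [← hρ ⟨t, ht⟩ E]
          exact (NonUnitalStarAlgHom.norm_apply_le _ _).trans (hr i j).le
        calc g t * g t * ‖π t E‖ ≤ 1 * (ε / 4) :=
              mul_le_mul hg2.2 h3 (norm_nonneg _) zero_le_one
          _ = ε / 4 := one_mul _
      · have h3 : g t = 0 := hg0 fun h' => ht (interior_subset h')
        rw [h3, zero_mul, zero_mul]; exact hε4.le
    have h3 : ‖(((1 - g t * g t : ℝ)) : ℂ) • π t (if i = j then a else 0)‖ ≤ ε / 4 := by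
      rw [norm_smul, Complex.norm_real, Real.norm_of_nonneg (by linarith [hg2.2])]
      by_cases ht : ε / 4 ≤ ‖π t a‖
      · have h4 : g t = 1 := hg1 ht
        rw [h4, mul_one, sub_self, zero_mul]; exact hε4.le
      · have h4 : ‖π t (if i = j then a else 0)‖ ≤ ε / 4 := by
          split_ifs
          · exact (not_le.1 ht).le
          · rw [map_zero, norm_zero]; exact hε4.le
        calc (1 - g t * g t) * ‖π t (if i = j then a else 0)‖ ≤ 1 * (ε / 4) :=
              mul_le_mul (by linarith [hg2.1]) h4 (norm_nonneg _) zero_le_one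
          _ = ε / 4 := one_mul _
    rw [h1]
    exact (norm_sub_le _ _).trans (by linarith)
  have hφa : 0 ≤ φ a := by
    obtain ⟨k, rfl⟩ := CStarAlgebra.nonneg_iff_eq_star_mul_self.1 a0
    rw [map_mul, map_star]; exact star_mul_self_nonneg _
  obtain ⟨x, y, h1, h2, h3⟩ := hC (φ a) hφa (ε / 4) hε4
  obtain ⟨x, rfl⟩ := hφ x
  obtain ⟨y, rfl⟩ := hφ y
  obtain ⟨R, hR⟩ := key ![x, y] (by
    have h4 : ‖star (φ y) * φ a * φ x‖ < ε / 4 := by
      rw [← norm_star, star_mul, star_mul, star_star, ← mul_assoc,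
        (IsSelfAdjoint.of_nonneg hφa).star_eq]
      exact h3
    intro i j
    fin_cases i <;> fin_cases j
    · simpa [map_mul, map_star, map_sub] using h1
    · simpa [map_mul, map_star, map_sub] using h3
    · simpa [map_mul, map_star, map_sub] using h4
    · simpa [map_mul, map_star, map_sub] using h2)
  refine ⟨R 0, R 1, ?_, ?_, ?_⟩
  · simpa using hR 0 0
  · simpa using hR 1 1
  · simpa using hR 0 1

/-- the case `tfield` -/
theorem wpi_tfield {X : Type u} [TopologicalSpace X] [LocallyCompactSpace X] [T2Space X]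
    (hX : ∀ K : Set X, IsCompact K → TrInd K) {B : X → Type u}
    [∀ t, NonUnitalCStarAlgebra (B t)] [∀ t, PartialOrder (B t)] [∀ t, StarOrderedRing (B t)]
    {A : Type u} [NonUnitalCStarAlgebra A] [PartialOrder A] [StarOrderedRing A]
    (h : IsSectionAlgebra B A) (hA : WeaklyPurelyInfinite A)
    (hB : ∀ t, PurelyInfinite (B t)) : PurelyInfinite A := by
  obtain ⟨π, h1, h2, h3, h4⟩ := h
  obtain ⟨n, hn⟩ := wpi_elementwise hA
  exact pi_of_eltPI (eltPI_trInd_lc hX (π := π) ⟨h1, h2, h3, h4⟩ hn fun t => eltPI_of _ (hB t))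

end Vale.Agent.P133.H695
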