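import Vale.Agent.P133.R2.H695.Roerdam
import Vale.Agent.P133.R2.H695.Defs
import Vale.Agent.P133.H681.Field3
import Mathlib.Topology.UrysohnsLemma

/-!
P133 (helper695): local multiples of sections and gluing along partitions of the base space.
-/

open scoped ComplexOrder

namespace Vale.Agent.P133.H695

open Vale.Agent.P133 Vale.Agent.P133.Statement Vale.Agent.P133.H832 Vale.Agent.P133F
  Vale.Agent.P133.H681

universe u

section

variable {X : Type u} [TopologicalSpace X] {B : X → Type u} [∀ t, NonUnitalCStarAlgebra (B t)]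
  {A : Type u} [NonUnitalCStarAlgebra A] {π : ∀ t, A →⋆ₙₐ[ℂ] B t}

theorem sec_ext (hπ : FieldData π) {x y : A} (h : ∀ t, π t x = π t y) : x = y := by
  have h1 := hπ.norm (x - y) 0 le_rfl fun t => by rw [map_sub, h t, sub_self, norm_zero]
  exact sub_eq_zero.1 (norm_le_zero_iff.1 h1)

omit [TopologicalSpace X] in
theorem pi_cut [PartialOrder A] [StarOrderedRing A] {b : A} (hb : 0 ≤ b) {κ : ℝ} (hκ : 0 < κ)
    (t : X) : π t (cut κ b) = cut κ (π t b) := by
  have hsa : IsSelfAdjoint b := IsSelfAdjoint.of_nonneg hb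
  exact NonUnitalStarAlgHomClass.map_cfcₙ (π t) (fun s : ℝ => max (s - κ) 0) b
    (hf := by fun_prop) (hf₀ := by simp only [zero_sub]; exact max_eq_right (by linarith))
    (hφ := AddMonoidHomClass.continuous_of_bound (π t) 1 fun x => by
      rw [one_mul]; exact NonUnitalStarAlgHom.norm_apply_le (π t) x)
    (ha := hsa) (hφa := hsa.map (π t))

theorem cut_eq_zero {D : Type u} [NonUnitalCStarAlgebra D] {b : D} {κ : ℝ} (hκ : 0 < κ)
    (hb : ‖b‖ ≤ κ) : cut κ b = 0 := by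
  by_cases hsa : IsSelfAdjoint b
  · rw [cut, ← cfcₙ_const_zero ℝ b]
    refine cfcₙ_congr fun s hs => ?_
    have h1 : ‖s‖ ≤ ‖b‖ := by
      have h2 := norm_apply_le_norm_cfcₙ (𝕜 := ℝ) (fun x : ℝ => x) b hs
      rwa [cfcₙ_id' ℝ b] at h2
    have h3 : s ≤ κ := (le_abs_self s).trans (h1.trans hb)
    exact max_eq_right (by linarith)
  · exact cfcₙ_apply_of_not_predicate b hsa

/-- `b` is positive if it is `f a` for `a` positive -/
theorem mul_nonneg' [PartialOrder A] [StarOrderedRing A] (hπ : FieldData π) {a b : A}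
    (ha : 0 ≤ a) {f : C(X, ℝ)} (hf : ∀ t, 0 ≤ f t ∧ f t ≤ 1)
    (hb : ∀ t, π t b = ((f t : ℝ) : ℂ) • π t a) : 0 ≤ b := by
  obtain ⟨k, rfl⟩ := CStarAlgebra.nonneg_iff_eq_star_mul_self.1 ha
  let g : C(X, ℝ) := ⟨fun t => Real.sqrt (f t), by fun_prop⟩
  obtain ⟨c, hc⟩ := hπ.mul g (fun t => ⟨Real.sqrt_nonneg _, Real.sqrt_le_one.2 (hf t).2⟩) k
  have h1 : b = star c * c := by
    refine sec_ext hπ fun t => ?_
    have hg : (g t : ℝ) * g t = f t := Real.mul_self_sqrt (hf t).1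
    rw [hb, map_mul, map_star, map_mul, map_star, hc, star_smul, RCLike.star_def,
      Complex.conj_ofReal, smul_mul_smul_comm, ← Complex.ofReal_mul, hg]
  rw [h1]
  exact star_mul_self_nonneg c

end

section

variable {X : Type u} [TopologicalSpace X] {B : X → Type u} [∀ t, NonUnitalCStarAlgebra (B t)]
  {A : Type u} [NonUnitalCStarAlgebra A] [PartialOrder A] [StarOrderedRing A]
  (π : ∀ t, A →⋆ₙₐ[ℂ] B t)

/-- all multiples of `(f a - κ)₊` are below `a` for all `f` vanishing off `U` -/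
def Good (a : A) (κ : ℝ) (U : Set X) : Prop :=
  ∀ f : C(X, ℝ), (∀ t, 0 ≤ f t ∧ f t ≤ 1) → (∀ t, t ∉ U → f t = 0) →
    ∀ b : A, (∀ t, π t b = ((f t : ℝ) : ℂ) • π t a) → InfB a (cut κ b)

variable {π}

/-- points with purely infinite fibres have good neighbourhoods -/
theorem good_local [T2Space X] (hπ : FieldData π) {n : ℕ} (hn : WPI A n) {a : A} (ha : 0 ≤ a)
    {κ : ℝ} (hκ : 0 < κ) (t₀ : X) (hB : Diag (B t₀)) :
    ∃ U : Set X, IsOpen U ∧ t₀ ∈ U ∧ Good π a κ U := by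
  obtain ⟨k, hk⟩ := CStarAlgebra.nonneg_iff_eq_star_mul_self.1 ha
  set κ' : ℝ := κ / ((n : ℝ) * n + 1) with hκ'
  have hn0 : (0 : ℝ) ≤ n := Nat.cast_nonneg n
  have hκ'0 : 0 < κ' := by positivity
  have hlt : (n : ℝ) * (n * κ') < κ := by
    rw [hκ', ← mul_assoc, mul_div_assoc', div_lt_iff₀ (by positivity)]
    nlinarith
  obtain ⟨d, -, hd⟩ := hB n (fun _ => π t₀ k) κ' hκ'0
  choose r hr using fun i => hπ.surj t₀ (d i)
  set e : Fin n → Fin n → A := fun i j => star (r i) * a * r j - (if i = j then a else 0) with he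
  have he0 : ∀ i j, ‖π t₀ (e i j)‖ < κ' := by
    intro i j
    have h1 := hd i j
    have h2 : π t₀ (e i j) = star (π t₀ k * d i) * (π t₀ k * d j) -
        (if i = j then star (π t₀ k) * π t₀ k else 0) := by
      rw [he]
      simp only
      rw [map_sub, hk, map_mul, map_mul, map_star, map_mul, map_star, hr, hr, star_mul]
      congr 1
      · simp only [mul_assoc]
      · split_ifs
        · rw [map_mul, map_star]
        · rw [map_zero]
    rwa [h2]
  refine ⟨(⋃ p : Fin n × Fin n, {t | κ' ≤ ‖π t (e p.1 p.2)‖})ᶜ, ?_, ?_, ?_⟩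
  · exact (isCompact_iUnion fun p => hπ.cpt _ _ hκ'0).isClosed.isOpen_compl
  · intro h
    obtain ⟨p, hp⟩ := Set.mem_iUnion.1 h
    exact absurd (he0 p.1 p.2) (not_lt.2 hp)
  · intro f hf hfU b hb
    have hb0 : 0 ≤ b := mul_nonneg' hπ ha hf hb
    let g : C(X, ℝ) := ⟨fun t => Real.sqrt (f t), by fun_prop⟩
    have hg : ∀ t, (g t : ℝ) * g t = f t := fun t => Real.mul_self_sqrt (hf t).1
    choose R hR using fun i => hπ.mul g (fun t => ⟨Real.sqrt_nonneg _,
      Real.sqrt_le_one.2 (hf t).2⟩) (r i)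
    refine infB_cut hn (IsSelfAdjoint.of_nonneg ha).star_eq hb0 hκ R (κ' := κ') (fun i j => ?_)
      hlt
    refine hπ.norm _ _ hκ'0.le fun t => ?_
    have h3 : π t (star (R i) * a * R j - (if i = j then b else 0)) =
        ((f t : ℝ) : ℂ) • π t (e i j) := by
      have h4 : π t (if i = j then b else 0) = ((f t : ℝ) : ℂ) • π t (if i = j then a else 0) := by
        split_ifs
        · exact hb t
        · rw [map_zero, smul_zero]
      rw [map_sub, h4, he]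
      simp only
      rw [map_sub, smul_sub, map_mul, map_mul, map_star, hR, hR, star_smul, RCLike.star_def,
        Complex.conj_ofReal, smul_mul_assoc, smul_mul_smul_comm, ← Complex.ofReal_mul, hg,
        map_mul, map_mul, map_star]
    rw [h3, norm_smul, Complex.norm_real, Real.norm_of_nonneg (hf t).1]
    by_cases ht : t ∈ (⋃ p : Fin n × Fin n, {t | κ' ≤ ‖π t (e p.1 p.2)‖})ᶜ
    · have h5 : ‖π t (e i j)‖ < κ' := by
        by_contra hcon
        exact ht (Set.mem_iUnion.2 ⟨(i, j), not_lt.1 hcon⟩)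
      calc f t * ‖π t (e i j)‖ ≤ 1 * κ' :=
            mul_le_mul (hf t).2 h5.le (norm_nonneg _) zero_le_one
        _ = κ' := one_mul _
    · rw [hfU t ht, zero_mul]; exact hκ'0.le

/-- gluing along a partition -/
theorem good_union [CompactSpace X] [T2Space X] (hπ : FieldData π) {n : ℕ} (hn : WPI A n)
    {a : A} (ha : 0 ≤ a) {κ : ℝ} (hκ : 0 < κ) {U V : Set X} (hU : IsOpen U) (hV : IsOpen V)
    (gU : Good π a κ U) (gV : Good π a κ V)
    (hpart : ∀ F G : Set X, IsClosed F → IsClosed G → Disjoint F G → ∃ O₁ O₂ : Set X,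
      F ⊆ O₁ ∧ G ⊆ O₂ ∧ ∃ I₁ I₂ : Submodule ℂ A, IsClosedIdeal I₁ ∧ IsClosedIdeal I₂ ∧
        (∀ z, z ∈ I₁ ↔ ∀ t, t ∉ O₁ → π t z = 0) ∧ (∀ z, z ∈ I₂ ↔ ∀ t, t ∉ O₂ → π t z = 0) ∧
        (∀ z ∈ I₁, z ∈ I₂ → z = 0) ∧
        IsOpen O₁ ∧ IsOpen O₂ ∧ ∃ (C : Type u) (_ : NonUnitalCStarAlgebra C) (φ : A →⋆ₙₐ[ℂ] C),
          Function.Surjective φ ∧ (∀ z, φ z = 0 ↔ z ∈ (I₁ ⊔ I₂).topologicalClosure) ∧ Diag C) :
    Good π a κ (U ∪ V) := by
  intro f hf hfUV b hb
  have hb0 : 0 ≤ b := mul_nonneg' hπ ha hf hb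
  set M : ℝ := ‖a‖ + 1 with hM
  have hM0 : 0 < M := by positivity
  set F : Set X := {t | κ / M ≤ f t} with hF
  have hFc : IsClosed F := isClosed_le continuous_const f.continuous
  have hFUV : ∀ t ∈ F, t ∉ U → t ∈ V := by
    intro t ht htU
    by_contra htV
    have h1 := hfUV t (by rintro (h | h); exacts [htU h, htV h])
    have h2 : κ / M ≤ f t := ht
    rw [h1] at h2
    exact absurd h2 (not_le.2 (by positivity))
  obtain ⟨O₁, O₂, hFO, hGO, I₁, I₂, hI₁, hI₂, hI₁', hI₂', h12, hO₁, hO₂, C, j1, φ, hφ, hk, hC⟩ :=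
    hpart (F ∩ Vᶜ) (F ∩ Uᶜ) (hFc.inter hV.isClosed_compl) (hFc.inter hU.isClosed_compl)
      (Set.disjoint_left.2 fun t h1 h2 => h1.2 (hFUV t h1.1 h2.2))
  have key : ∀ (W O : Set X), IsOpen W → IsOpen O → (F ∩ Wᶜ ⊆ O) → Good π a κ W →
      ∃ x, InfB a x ∧ ∀ t, t ∉ O → π t (cut κ b - x) = 0 := by
    intro W O hW hO hWO gW
    obtain ⟨ψ, hψ0, hψ1, hψ⟩ := exists_continuous_zero_one_of_isClosed
      (s := Wᶜ) (t := F ∩ Oᶜ) hW.isClosed_compl (hFc.inter hO.isClosed_compl)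
      (Set.disjoint_left.2 fun t h1 h2 => h2.2 (hWO ⟨h2.1, h1⟩))
    let g : C(X, ℝ) := f * ψ
    have hgt : ∀ t, g t = f t * ψ t := fun t => rfl
    have hg01 : ∀ t, 0 ≤ g t ∧ g t ≤ 1 := fun t =>
      ⟨mul_nonneg (hf t).1 (hψ t).1, by
        rw [hgt]
        exact mul_le_one₀ (hf t).2 (hψ t).1 (hψ t).2⟩
    obtain ⟨c, hc⟩ := hπ.mul g hg01 a
    have hc0 : 0 ≤ c := mul_nonneg' hπ ha hg01 hc
    refine ⟨cut κ c, gW g hg01 (fun t ht => ?_) c hc, fun t ht => ?_⟩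
    · rw [hgt, hψ0 ht]; simp
    · rw [map_sub, pi_cut hb0 hκ, pi_cut hc0 hκ, sub_eq_zero]
      by_cases htF : t ∈ F
      · have h1 : ψ t = 1 := hψ1 ⟨htF, ht⟩
        rw [hb, hc, hgt, h1, mul_one]
      · have h1 : f t < κ / M := not_le.1 htF
        have h2 : ∀ s : ℝ, 0 ≤ s → s ≤ f t → ‖((s : ℝ) : ℂ) • π t a‖ ≤ κ := by
          intro s hs hst
          rw [norm_smul, Complex.norm_real, Real.norm_of_nonneg hs]
          have h3 : ‖π t a‖ ≤ M := (NonUnitalStarAlgHom.norm_apply_le _ _).trans (by linarith)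
          calc s * ‖π t a‖ ≤ κ / M * M :=
                mul_le_mul (hst.trans h1.le) h3 (norm_nonneg _) (by positivity)
            _ = κ := div_mul_cancel₀ _ hM0.ne'
        rw [cut_eq_zero hκ (by rw [hb]; exact h2 _ (hf t).1 le_rfl),
          cut_eq_zero hκ (by
            rw [hc]
            exact h2 _ (hg01 t).1 (by
              rw [hgt]
              exact mul_le_of_le_one_right (hf t).1 (hψ t).2))]
  obtain ⟨x, hx, hx'⟩ := key U O₂ hU hO₂ hGO gU
  obtain ⟨y, hy, hy'⟩ := key V O₁ hV hO₁ hFO gV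
  have hcut0 : 0 ≤ cut κ b := (cutdown_le hb0 hκ).1
  exact glue hn ha hcut0 hI₁ hI₂ h12 hx hy ((hI₂' _).2 hx') ((hI₁' _).2 hy') hφ hk hC

theorem good_empty (hπ : FieldData π) {a : A} (κ : ℝ) (hκ : 0 < κ) : Good π a κ (∅ : Set X) := by
  intro f _ hf0 b hb
  have h1 : b = 0 := sec_ext hπ fun t => by
    rw [hb, hf0 t (Set.notMem_empty t), Complex.ofReal_zero, zero_smul, map_zero]
  rw [h1, cut_eq_zero hκ (by rw [norm_zero]; exact hκ.le)]
  exact ⟨le_rfl, fun m ε hε => ⟨fun _ => 0, fun i j => by simpa using hε⟩⟩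

theorem Good.mono {a : A} {κ : ℝ} {U V : Set X} (h : Good π a κ V) (hUV : U ⊆ V) :
    Good π a κ U := fun f hf hf0 b hb => h f hf (fun t ht => hf0 t fun h' => ht (hUV h')) b hb

/-- from good neighbourhoods to the algebra -/
theorem eltPI_of_good [CompactSpace X] (hπ : FieldData π)
    (hloc : ∀ (a : A), 0 ≤ a → ∀ κ : ℝ, 0 < κ → ∀ t : X, ∃ U, IsOpen U ∧ t ∈ U ∧ Good π a κ U)
    (hun : ∀ (a : A), 0 ≤ a → ∀ κ : ℝ, 0 < κ → ∀ U V : Set X, IsOpen U → IsOpen V →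
      Good π a κ U → Good π a κ V → Good π a κ (U ∪ V)) : EltPI A := by
  intro a a0 ε hε
  have hI : InfB a a := by
    refine infB_lim a0 fun κ hκ => ?_
    have h1 : ∃ U : Set X, IsOpen U ∧ Set.univ ⊆ U ∧ Good π a (κ / 2) U := by
      refine isCompact_univ.induction_on (p := fun s => ∃ U, IsOpen U ∧ s ⊆ U ∧ Good π a (κ / 2) U)
        ?_ ?_ ?_ ?_
      · exact ⟨∅, isOpen_empty, le_rfl, good_empty hπ _ (half_pos hκ)⟩
      · rintro s t hst ⟨U, h1, h2, h3⟩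
        exact ⟨U, h1, hst.trans h2, h3⟩
      · rintro s t ⟨U, h1, h2, h3⟩ ⟨V, h4, h5, h6⟩
        exact ⟨U ∪ V, h1.union h4, Set.union_subset_union h2 h5,
          hun a a0 _ (half_pos hκ) U V h1 h4 h3 h6⟩
      · intro t _
        obtain ⟨U, h1, h2, h3⟩ := hloc a a0 (κ / 2) (half_pos hκ) t
        exact ⟨U, mem_nhdsWithin_of_mem_nhds (h1.mem_nhds h2), U, h1, le_rfl, h3⟩
    obtain ⟨U, -, hU, hg⟩ := h1
    have h2 := hg ⟨fun _ => 1, continuous_const⟩ (fun t => ⟨zero_le_one, le_rfl⟩)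
      (fun t ht => absurd (hU (Set.mem_univ t)) ht) a
      (fun t => by
        show π t a = (((1 : ℝ)) : ℂ) • π t a
        rw [Complex.ofReal_one, one_smul])
    refine ⟨_, h2, ?_⟩
    exact lt_of_le_of_lt (cutdown_le a0 (half_pos hκ)).2.2 (by linarith)
  obtain ⟨r, hr⟩ := hI.2 2 ε hε
  refine ⟨r 0, r 1, ?_, ?_, ?_⟩
  · simpa using hr 0 0
  · simpa using hr 1 1
  · simpa using hr 0 1

end

end Vale.Agent.P133.H695
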