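import Vale.Agent.P133.H832.Dim1

/-!
P133 (helper695): approximate multiples give exact multiples of the cut element.
-/

open scoped ComplexOrder

namespace Vale.Agent.P133.H695

open Vale.Agent.P133 Vale.Agent.P133.Statement Vale.Agent.P133.H832 Vale.Agent.P133F
  Vale.Agent.P133.H681

universe u

/-- the element `(b - κ)₊` -/
noncomputable def cut {A : Type u} [NonUnitalCStarAlgebra A] (κ : ℝ) (b : A) : A :=
  cfcₙ (fun s : ℝ => max (s - κ) 0) b

section

variable {A : Type u} [NonUnitalCStarAlgebra A] [PartialOrder A] [StarOrderedRing A]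

theorem factor_near {E G D : A} {κ κ' : ℝ} (hE : star E = E) (hD : star D = D)
    (hG : star G = G) (h1 : κ • (E * E) ≤ E * D * E) (h2 : ‖D - G‖ ≤ κ') (hκ : κ' < κ) {δ : ℝ}
    (hδ : 0 < δ) : ∃ d : A, ‖star d * ((κ - κ')⁻¹ • (E * G * E)) * d - E * E‖ ≤ δ := by
  have hsa : IsSelfAdjoint (D - G) := by
    rw [IsSelfAdjoint, star_sub, hD, hG]
  have hEE : 0 ≤ E * E := by
    have := star_mul_self_nonneg E
    rwa [hE] at this
  have h3 : E * (D - G) * E ≤ κ' • (E * E) := by
    have h4 := CStarAlgebra.star_left_conjugate_le_norm_smul (a := E) (b := D - G) hsa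
    rw [hE] at h4
    exact h4.trans (smul_le_smul_of_nonneg_right h2 hEE)
  have h5 : (κ - κ') • (E * E) ≤ E * G * E := by
    rw [sub_smul]
    rw [mul_sub, sub_mul, sub_le_iff_le_add] at h3
    have h6 := h1.trans h3
    rw [sub_le_iff_le_add, add_comm]
    exact h6
  have hpos : 0 < κ - κ' := by linarith
  have h7 : E * E ≤ (κ - κ')⁻¹ • (E * G * E) := by
    have h8 := smul_le_smul_of_nonneg_left h5 (inv_nonneg.2 hpos.le)
    rwa [smul_smul, inv_mul_cancel₀ hpos.ne', one_smul] at h8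
  exact order_factor hEE h7 hδ

theorem cut_sqrt {b : A} (hb : 0 ≤ b) {κ : ℝ} (hκ : 0 < κ) :
    ∃ e : A, star e = e ∧ e * e = cut κ b ∧ κ • (e * e) ≤ e * b * e := by
  have hf0 : (fun s : ℝ => √(max (s - κ) 0)) 0 = 0 := by
    simp only [zero_sub]
    rw [max_eq_right (by linarith), Real.sqrt_zero]
  have hsa : IsSelfAdjoint b := IsSelfAdjoint.of_nonneg hb
  refine ⟨cfcₙ (fun s : ℝ => √(max (s - κ) 0)) b, ?_, ?_, ?_⟩
  · exact (cfcₙ_predicate (fun s : ℝ => √(max (s - κ) 0)) b : IsSelfAdjoint _).star_eq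
  · rw [← cfcₙ_mul (fun s : ℝ => √(max (s - κ) 0)) (fun s : ℝ => √(max (s - κ) 0)) b
      (by fun_prop) hf0 (by fun_prop) hf0, cut]
    congr 1
    funext s
    exact Real.mul_self_sqrt (le_max_right _ _)
  · have e1 : cfcₙ (fun s : ℝ => √(max (s - κ) 0)) b * b * cfcₙ (fun s : ℝ => √(max (s - κ) 0)) b
        = cfcₙ (fun s : ℝ => √(max (s - κ) 0) * s * √(max (s - κ) 0)) b := by
      rw [cfcₙ_mul (fun s : ℝ => √(max (s - κ) 0) * s) (fun s : ℝ => √(max (s - κ) 0)) b
        (by fun_prop) (by simp) (by fun_prop) hf0,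
        cfcₙ_mul (fun s : ℝ => √(max (s - κ) 0)) (fun s : ℝ => s) b
        (by fun_prop) hf0 (by fun_prop) rfl, cfcₙ_id' ℝ b]
    have e2 : κ • (cfcₙ (fun s : ℝ => √(max (s - κ) 0)) b *
        cfcₙ (fun s : ℝ => √(max (s - κ) 0)) b) =
        cfcₙ (fun s : ℝ => κ • (√(max (s - κ) 0) * √(max (s - κ) 0))) b := by
      rw [cfcₙ_smul κ (fun s : ℝ => √(max (s - κ) 0) * √(max (s - κ) 0)) b (by fun_prop)
        (by simp only [mul_eq_zero, or_self]; exact hf0),
        cfcₙ_mul (fun s : ℝ => √(max (s - κ) 0)) (fun s : ℝ => √(max (s - κ) 0)) b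
        (by fun_prop) hf0 (by fun_prop) hf0]
    rw [e1, e2]
    refine cfcₙ_mono (fun s hs => ?_) (by fun_prop) (by fun_prop)
      (by simp only [smul_eq_mul, mul_eq_zero, or_self]; exact Or.inr hf0)
      (by simp)
    simp only [smul_eq_mul]
    rcases le_total s κ with h | h
    · rw [max_eq_right (by linarith), Real.sqrt_zero]; simp
    · have h2 : 0 ≤ √(max (s - κ) 0) := Real.sqrt_nonneg _
      nlinarith [mul_nonneg h2 h2]

end

section matrix

variable {A : Type u} [NonUnitalCStarAlgebra A]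

/-- scalar matrices -/
def dg (n : ℕ) (x : A) : CStarMatrix (Fin n) (Fin n) A :=
  CStarMatrix.ofMatrix fun i j => if i = j then x else 0

theorem dg_apply (n : ℕ) (x : A) (i j : Fin n) : dg n x i j = if i = j then x else 0 := rfl

theorem dg_mul (n : ℕ) (x : A) (N : CStarMatrix (Fin n) (Fin n) A) (i j : Fin n) :
    (dg n x * N) i j = x * N i j := by
  rw [CStarMatrix.mul_apply, Finset.sum_eq_single i]
  · rw [dg_apply, if_pos rfl]
  · intro k _ hk
    rw [dg_apply, if_neg (fun h => hk h.symm), zero_mul]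
  · intro h; exact absurd (Finset.mem_univ i) h

theorem mul_dg (n : ℕ) (x : A) (N : CStarMatrix (Fin n) (Fin n) A) (i j : Fin n) :
    (N * dg n x) i j = N i j * x := by
  rw [CStarMatrix.mul_apply, Finset.sum_eq_single j]
  · rw [dg_apply, if_pos rfl]
  · intro k _ hk
    rw [dg_apply, if_neg hk, mul_zero]
  · intro h; exact absurd (Finset.mem_univ j) h

theorem star_dg (n : ℕ) (x : A) : star (dg n x) = dg n (star x) := by
  ext i j
  rw [CStarMatrix.star_apply, dg_apply, dg_apply]
  by_cases h : i = j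
  · rw [if_pos h, if_pos h.symm]
  · rw [if_neg h, if_neg (fun h' => h h'.symm), star_zero]

theorem dg_mul_dg (n : ℕ) (x y : A) : dg n x * dg n y = dg n (x * y) := by
  ext i j
  rw [dg_mul, dg_apply, dg_apply]
  split_ifs
  · rfl
  · rw [mul_zero]

theorem dg_sub (n : ℕ) (x y : A) : dg n (x - y) = dg n x - dg n y := by
  ext i j
  rw [CStarMatrix.sub_apply, dg_apply, dg_apply, dg_apply]
  split_ifs <;> simp

theorem dg_smul (n : ℕ) (c : ℝ) (x : A) : dg n (c • x) = c • dg n x := by
  ext i j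
  rw [CStarMatrix.smul_apply, dg_apply, dg_apply]
  split_ifs <;> simp

end matrix

section

variable {A : Type u} [NonUnitalCStarAlgebra A] [PartialOrder A] [StarOrderedRing A]

theorem dg_nonneg (n : ℕ) {x : A} (hx : 0 ≤ x) [PartialOrder (CStarMatrix (Fin n) (Fin n) A)]
    [StarOrderedRing (CStarMatrix (Fin n) (Fin n) A)] : 0 ≤ dg n x := by
  obtain ⟨y, rfl⟩ := CStarAlgebra.nonneg_iff_eq_star_mul_self.1 hx
  rw [← dg_mul_dg, ← star_dg]
  exact star_mul_self_nonneg _

/-- `n` approximate multiples of `b` below `a`: all multiples of `(b - κ)₊` are below `a` -/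
theorem infB_cut {n : ℕ} (hA : WPI A n) {a b : A} (ha : star a = a) (hb : 0 ≤ b) {κ κ' : ℝ}
    (hκ : 0 < κ) (R : Fin n → A)
    (hR : ∀ i j, ‖star (R i) * a * R j - (if i = j then b else 0)‖ ≤ κ')
    (he : (n : ℝ) * (n * κ') < κ) : InfB a (cut κ b) := by
  obtain ⟨e, hes, hee, hle⟩ := cut_sqrt hb hκ
  have hcut0 : 0 ≤ cut κ b := by
    rw [← hee]
    have := star_mul_self_nonneg e
    rwa [hes] at this
  refine infB_of_wpi hA hcut0 fun δ hδ => ?_
  let _ : PartialOrder (CStarMatrix (Fin n) (Fin n) A) := CStarAlgebra.spectralOrder _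
  have _ : StarOrderedRing (CStarMatrix (Fin n) (Fin n) A) := CStarAlgebra.spectralOrderedRing _
  set G : CStarMatrix (Fin n) (Fin n) A := CStarMatrix.ofMatrix fun i j => star (R i) * a * R j
    with hG
  have hGa : ∀ i j, G i j = star (R i) * a * R j := fun i j => rfl
  have hGs : star G = G := by
    ext i j
    rw [CStarMatrix.star_apply, hGa, hGa, star_mul, star_mul, star_star, ha, mul_assoc]
  have h1 : κ • (dg n e * dg n e) ≤ dg n e * dg n b * dg n e := by
    rw [dg_mul_dg, dg_mul_dg, dg_mul_dg, ← dg_smul, ← sub_nonneg, ← dg_sub]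
    exact dg_nonneg n (sub_nonneg.2 hle)
  have h2 : ‖dg n b - G‖ ≤ (n : ℝ) * (n * κ') := by
    refine (norm_le_sum _).trans ?_
    refine (Finset.sum_le_sum fun j _ => Finset.sum_le_sum fun i _ => (?_ : _ ≤ κ')).trans ?_
    · rw [CStarMatrix.sub_apply, dg_apply, hGa, ← norm_neg, neg_sub]
      exact hR _ _
    · simp only [Finset.sum_const, Finset.card_univ, Fintype.card_fin, nsmul_eq_mul]
      exact le_rfl
  have hsb : star b = b := (IsSelfAdjoint.of_nonneg hb).star_eq
  obtain ⟨D, hD⟩ := factor_near (E := dg n e) (G := G) (D := dg n b) (by rw [star_dg, hes])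
    (by rw [star_dg, hsb]) hGs h1 h2 he hδ
  set l : ℝ := (κ - (n : ℝ) * (n * κ'))⁻¹ with hl
  have hl0 : 0 ≤ l := inv_nonneg.2 (by linarith)
  refine ⟨fun j => √l • ∑ k, R k * (e * D k j), fun i j => ?_⟩
  have h3 : star (√l • ∑ k, R k * (e * D k i)) * a * (√l • ∑ k, R k * (e * D k j)) =
      (star D * (l • (dg n e * G * dg n e)) * D) i j := by
    rw [star_smul, star_trivial, smul_mul_assoc, smul_mul_smul_comm, Real.mul_self_sqrt hl0,
      star_sum_mul_sum R a (fun k => e * D k i) (fun k => e * D k j)]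
    rw [CStarMatrix.mul_apply, Finset.sum_comm, Finset.smul_sum]
    refine Finset.sum_congr rfl fun k' _ => ?_
    rw [CStarMatrix.mul_apply, Finset.smul_sum, Finset.sum_mul]
    refine Finset.sum_congr rfl fun k _ => ?_
    rw [CStarMatrix.star_apply, CStarMatrix.smul_apply, mul_dg, dg_mul, hGa, star_mul, hes,
      mul_smul_comm, smul_mul_assoc]
    simp only [mul_assoc]
  rw [h3]
  have h4 : (star D * (l • (dg n e * G * dg n e)) * D) i j - (if i = j then cut κ b else 0) =
      (star D * (l • (dg n e * G * dg n e)) * D - dg n e * dg n e) i j := by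
    rw [CStarMatrix.sub_apply, dg_mul_dg, dg_apply, hee]
  rw [h4]
  exact (CStarMatrix.norm_entry_le_norm).trans hD

end

end Vale.Agent.P133.H695
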